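import Mathlib
import Vale.Agent.Lib.P028.Final

open MeasureTheory Filter

namespace Vale.Agent.Results.P028.A_gcd_criterion

theorem result (γ ψ : ℕ → ℝ) (h0 : ∀ q, 0 ≤ ψ q)
    (hdiv : Tendsto (fun Q : ℕ => ∑ q ∈ Finset.Icc 1 Q, min (ψ q) (1 / 2)) atTop atTop)
    (hcrit : ∀ ε : ℝ, 0 < ε → ∃ᶠ Q : ℕ in atTop,
      ∑ q ∈ Finset.Icc 1 Q, min (ψ q) (1 / 2) *
          (∑ r ∈ Finset.range q, if 0 < r ∧ 0 < ψ r then (Nat.gcd r q : ℝ) / q else 0)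
        ≤ ε * (∑ q ∈ Finset.Icc 1 Q, min (ψ q) (1 / 2)) ^ 2) :
    ∀ᵐ x : ℝ, ∃ᶠ q : ℕ in atTop, ∃ a : ℤ, |(q : ℝ) * x - a - γ q| < ψ q :=
  Vale.Agent.Lib.P028.ae_infinitely_many γ ψ h0 hdiv hcrit

end Vale.Agent.Results.P028.A_gcd_criterion
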