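import Mathlib
import Vale.Agent.Lib.P028.Corollary

open MeasureTheory Filter

namespace Vale.Agent.Results.P028.B_few_divisors

theorem result (γ ψ : ℕ → ℝ) (h0 : ∀ q, 0 ≤ ψ q) (T : ℕ)
    (hT : ∀ q, 0 < ψ q → (Nat.divisors q).card ≤ T)
    (hw : ¬ Summable (fun q : ℕ => (Nat.totient q : ℝ) / q * ψ q)) :
    ∀ᵐ x : ℝ, ∃ᶠ q : ℕ in atTop, ∃ a : ℤ, |(q : ℝ) * x - a - γ q| < ψ q :=
  Vale.Agent.Lib.P028.few_divisors γ ψ h0 T hT hw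

end Vale.Agent.Results.P028.B_few_divisors
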