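import Vale.Agent.Lib.P028J.AE
import Vale.Agent.Lib.P028I.Window
import Vale.Agent.Results.P028.AAAA_union

open Filter MeasureTheory

namespace Vale.Agent.Results.P028.C_all_J

/-- All results in one statement. In what follows `C(γ, ψ)` is the conclusion: for almost every real `x` the inequality
`|q x - a - γ| < ψ q` holds for infinitely many `q`.
First part (all shifts, `ψ = O(1/q)`): for every `γ` and `ψ ≥ 0`, if the sum of `φ(q)/q min (ψ q) (1/q)` diverges, or if `γ` is irrational and not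
Liouville and the sum of `min (ψ q) (1/q)` diverges, then `C(γ, ψ)`.
Second part (slow growth above `1/q`, Diophantine type): if `κ / n ^ w ≤ |n γ - a|` for all `n ≥ 1` and integers `a`, `0 < θ < 1/2`, `ψ ≥ 0`, and whenever `q ≥ q₀`, `ψ q > 1/q`:
`ψ r q^θ ≤ A ψ q r^θ` for all `r ≥ 2 q` with `ψ r > 1/r`, and `τ(q)^(1 + w²) ψ(q) q^β ≤ 1` with `β = (1 + w²)/(2 + w²)`; if the sum of `φ(q)/q ψ(q)` diverges, then `C(γ, ψ)`.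
Third part (every non-Liouville irrational shift): there is `β < 1` with the same conclusion for every `θ`, every `ψ` as above with `ψ q ≤ C₁ q^(-β)` above `1/q` in place of the `τ` condition; for almost every `γ` this holds with every `β > 2/3`.
Fourth part (divisor hypothesis instead of a size bound, `ψ` essentially non-increasing above `1/q`): whenever `q ≥ q₀`, `ψ q > 1/q`:
`ψ r ≤ A ψ q` for `r ≥ 2 q`, `ψ r > 1/r`; `ψ q ≤ 1/9`, `τ(q)^(1 + w²) ψ(q) ≤ 1`, and `D_q(X) ≤ C √(X/ψ(q))` for `0 ≤ X ≤ min (A/ψ(q)) (8 q^β)`, where `D_q(X)` is the sum of the divisors of `q` below `X`; if the sum of `φ(q)/q ψ(q)` diverges, then `C(γ, ψ)`.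
Fifth part (shifts varying with `q`): the gcd-sum criterion and the criterion for boundedly many divisors. -/
theorem result :
    (∀ (γ : ℝ) (ψ : ℕ → ℝ), (∀ q, 0 ≤ ψ q) →
      (¬ Summable (fun q : ℕ => ((Nat.totient q : ℝ) / q) * min (ψ q) (1 / (q : ℝ))) ∨
        (Irrational γ ∧ ¬ Liouville γ ∧ ¬ Summable (fun q : ℕ => min (ψ q) (1 / (q : ℝ))))) →
      ∀ᵐ x : ℝ, ∃ᶠ q : ℕ in atTop, ∃ a : ℤ, |(q : ℝ) * x - a - γ| < ψ q) ∧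
    (∀ (γ κ w θ : ℝ), 0 < κ → 1 ≤ w → 0 < θ → θ < 1 / 2 →
      (∀ n : ℕ, 0 < n → ∀ a : ℤ, κ / (n : ℝ) ^ w ≤ |(n : ℝ) * γ - a|) →
      ∀ (ψ : ℕ → ℝ) (A : ℝ) (q₀ : ℕ), (∀ q, 0 ≤ ψ q) → 1 ≤ A →
      (∀ q r : ℕ, q₀ ≤ q → 1 / (q : ℝ) < ψ q → 1 / (r : ℝ) < ψ r → 2 * q ≤ r →
        ψ r * (q : ℝ) ^ θ ≤ A * ψ q * (r : ℝ) ^ θ) →
      (∀ q, q₀ ≤ q → 1 / (q : ℝ) < ψ q →
        (q.divisors.card : ℝ) ^ (1 + w ^ 2) * ψ q * (q : ℝ) ^ ((1 + w ^ 2) / (2 + w ^ 2)) ≤ 1) →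
      ¬ Summable (fun q : ℕ => (Nat.totient q : ℝ) / q * ψ q) →
      ∀ᵐ x : ℝ, ∃ᶠ q : ℕ in atTop, ∃ a : ℤ, |(q : ℝ) * x - a - γ| < ψ q) ∧
    (∀ γ : ℝ, Irrational γ → ¬ Liouville γ →
      ∃ β : ℝ, β < 1 ∧ ∀ (θ : ℝ), 0 < θ → θ < 1 / 2 → ∀ (ψ : ℕ → ℝ) (A C₁ : ℝ) (q₀ : ℕ), (∀ q, 0 ≤ ψ q) → 1 ≤ A →
        (∀ q r : ℕ, q₀ ≤ q → 1 / (q : ℝ) < ψ q → 1 / (r : ℝ) < ψ r → 2 * q ≤ r →
          ψ r * (q : ℝ) ^ θ ≤ A * ψ q * (r : ℝ) ^ θ) →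
        (∀ q, q₀ ≤ q → 1 / (q : ℝ) < ψ q → ψ q ≤ C₁ * (q : ℝ) ^ (-β)) →
        ¬ Summable (fun q : ℕ => (Nat.totient q : ℝ) / q * ψ q) →
        ∀ᵐ x : ℝ, ∃ᶠ q : ℕ in atTop, ∃ a : ℤ, |(q : ℝ) * x - a - γ| < ψ q) ∧
    (∀ᵐ γ : ℝ, ∀ β : ℝ, 2 / 3 < β → ∀ θ : ℝ, 0 < θ → θ < 1 / 2 →
      ∀ (ψ : ℕ → ℝ) (A C₁ : ℝ) (q₀ : ℕ), (∀ q, 0 ≤ ψ q) → 1 ≤ A →
        (∀ q r : ℕ, q₀ ≤ q → 1 / (q : ℝ) < ψ q → 1 / (r : ℝ) < ψ r → 2 * q ≤ r →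
          ψ r * (q : ℝ) ^ θ ≤ A * ψ q * (r : ℝ) ^ θ) →
        (∀ q, q₀ ≤ q → 1 / (q : ℝ) < ψ q → ψ q ≤ C₁ * (q : ℝ) ^ (-β)) →
        ¬ Summable (fun q : ℕ => (Nat.totient q : ℝ) / q * ψ q) →
        ∀ᵐ x : ℝ, ∃ᶠ q : ℕ in atTop, ∃ a : ℤ, |(q : ℝ) * x - a - γ| < ψ q) ∧
    (∀ (γ κ w A C : ℝ), 0 < κ → 1 ≤ w → 1 ≤ A → 0 ≤ C →
      (∀ n : ℕ, 0 < n → ∀ a : ℤ, κ / (n : ℝ) ^ w ≤ |(n : ℝ) * γ - a|) →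
      ∀ (ψ : ℕ → ℝ) (q₀ : ℕ), (∀ q, 0 ≤ ψ q) →
      (∀ q r : ℕ, q₀ ≤ q → 1 / (q : ℝ) < ψ q → 1 / (r : ℝ) < ψ r → 2 * q ≤ r → ψ r ≤ A * ψ q) →
      (∀ q : ℕ, q₀ ≤ q → 1 / (q : ℝ) < ψ q → ψ q ≤ 1 / 9) →
      (∀ q : ℕ, q₀ ≤ q → 1 / (q : ℝ) < ψ q → (q.divisors.card : ℝ) ^ (1 + w ^ 2) * ψ q ≤ 1) →
      (∀ q : ℕ, q₀ ≤ q → 1 / (q : ℝ) < ψ q → ∀ X : ℝ, 0 ≤ X →
        X ≤ min (A / ψ q) (8 * (q : ℝ) ^ ((1 + w ^ 2) / (2 + w ^ 2))) →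
        ∑ t ∈ q.divisors.filter (fun t : ℕ => (t : ℝ) < X), (t : ℝ) ≤ C * Real.sqrt (X / ψ q)) →
      ¬ Summable (fun q : ℕ => (Nat.totient q : ℝ) / q * ψ q) →
      ∀ᵐ x : ℝ, ∃ᶠ q : ℕ in atTop, ∃ a : ℤ, |(q : ℝ) * x - a - γ| < ψ q) ∧
    (∀ (γ ψ : ℕ → ℝ), (∀ q, 0 ≤ ψ q) →
      ((Tendsto (fun Q : ℕ => ∑ q ∈ Finset.Icc 1 Q, min (ψ q) (1 / 2)) atTop atTop) →
        (∀ ε : ℝ, 0 < ε → ∃ᶠ Q : ℕ in atTop,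
          ∑ q ∈ Finset.Icc 1 Q, min (ψ q) (1 / 2) *
              (∑ r ∈ Finset.range q, if 0 < r ∧ 0 < ψ r then (Nat.gcd r q : ℝ) / q else 0)
            ≤ ε * (∑ q ∈ Finset.Icc 1 Q, min (ψ q) (1 / 2)) ^ 2) →
        ∀ᵐ x : ℝ, ∃ᶠ q : ℕ in atTop, ∃ a : ℤ, |(q : ℝ) * x - a - γ q| < ψ q) ∧
      (∀ T : ℕ, (∀ q, 0 < ψ q → (Nat.divisors q).card ≤ T) →
        (¬ Summable (fun q : ℕ => (Nat.totient q : ℝ) / q * ψ q)) →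
        ∀ᵐ x : ℝ, ∃ᶠ q : ℕ in atTop, ∃ a : ℤ, |(q : ℝ) * x - a - γ q| < ψ q)) :=
  ⟨Vale.Agent.Results.P028.AAAA_union.result.1,
    fun γ κ w θ hκ hw hθ0 hθ1 hdio ψ A q₀ h0 hA hmono hsize hdiv =>
      Vale.Agent.Lib.P028J.union_dio_J γ κ w θ hκ hw hθ0 hθ1 hdio ψ h0 A hA q₀ hmono hsize hdiv,
    fun γ hirr hL => Vale.Agent.Lib.P028J.union_nonLiouville_J γ hirr hL,
    Vale.Agent.Lib.P028J.ae_main,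
    fun γ κ w A C hκ hw hA hC hdio ψ q₀ h0 hmono hle hτ hdsum hdiv =>
      Vale.Agent.Lib.P028I.final_I_upper γ κ w A C hκ hw hA hC hdio ψ h0 q₀ hmono hle hτ hdsum hdiv,
    Vale.Agent.Results.P028.AAAA_union.result.2⟩

end Vale.Agent.Results.P028.C_all_J
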