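import Vale.Agent.Lib.P028G.Main

open Filter MeasureTheory

namespace Vale.Agent.Results.P028.C_sieve_bad

/-- Large sieve second moment theorem. Let `γ` be badly approximable, so `κ / n ≤ |n γ - a|` for all
`n ≥ 1` and integers `a`. Let `ψ ≥ 0` be non-increasing on its support, with `φ(q) ≥ c q` and
`τ(q)² ψ(q) q^(2/3) ≤ 1` on the support, and let the sum of `ψ` diverge. Then for almost every real
`x` the inequality `|q x - a - γ| < ψ q` holds for infinitely many `q`. -/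
theorem result (γ κ : ℝ) (hκ : 0 < κ)
    (hbad : ∀ n : ℕ, 0 < n → ∀ a : ℤ, κ / n ≤ |(n : ℝ) * γ - a|) (ψ : ℕ → ℝ)
    (h0 : ∀ q, 0 ≤ ψ q) (hmono : ∀ q r, 0 < ψ q → 0 < ψ r → q ≤ r → ψ r ≤ ψ q) (c : ℝ) (hc : 0 < c)
    (hφ : ∀ q, 0 < ψ q → c * q ≤ Nat.totient q)
    (hsize : ∀ q, 0 < ψ q → (q.divisors.card : ℝ) ^ 2 * ψ q * (q : ℝ) ^ ((2 : ℝ) / 3) ≤ 1)
    (hdiv : ¬ Summable ψ) :
    ∀ᵐ x : ℝ, ∃ᶠ q : ℕ in atTop, ∃ a : ℤ, |(q : ℝ) * x - a - γ| < ψ q :=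
  Vale.Agent.Lib.P028G.main_totient γ κ hκ hbad ψ h0 hmono c hc hφ hsize hdiv

end Vale.Agent.Results.P028.C_sieve_bad
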