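import Vale.Agent.Lib.P028H.Union

open Filter MeasureTheory

namespace Vale.Agent.Results.P028.C_sieve_dio

/-- Large sieve theorem for all non-Liouville irrational shifts, with the exact weight `φ(q)/q`.
First part: let `γ` have Diophantine type `w ≥ 1`, i.e. `κ / n ^ w ≤ |n γ - a|` for all `n ≥ 1` and
integers `a`. Let `ψ ≥ 0` be essentially non-increasing above `1/q` (for `q ≥ q₀` and `2 q ≤ r` with
`ψ q > 1/q` and `ψ r > 1/r` one has `ψ r ≤ A ψ q`), with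
`τ(q)^(1 + w²) ψ(q) q^((1 + w²)/(2 + w²)) ≤ 1` whenever `q ≥ q₀` and `ψ q > 1/q`, and let the sum of
`φ(q)/q ψ(q)` diverge. Then for almost every real `x` the inequality `|q x - a - γ| < ψ q` holds for
infinitely many `q`.
Second part: for every irrational non-Liouville `γ` there is `β < 1` such that the same conclusion
holds for every `ψ ≥ 0` essentially non-increasing above `1/q` with `ψ q ≤ C₁ q^(-β)` whenever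
`q ≥ q₀` and `ψ q > 1/q`, and with the sum of `φ(q)/q ψ(q)` divergent. -/
theorem result :
    (∀ (γ κ w : ℝ), 0 < κ → 1 ≤ w →
      (∀ n : ℕ, 0 < n → ∀ a : ℤ, κ / (n : ℝ) ^ w ≤ |(n : ℝ) * γ - a|) →
      ∀ (ψ : ℕ → ℝ) (A : ℝ) (q₀ : ℕ), (∀ q, 0 ≤ ψ q) → 1 ≤ A →
      (∀ q r : ℕ, q₀ ≤ q → 1 / (q : ℝ) < ψ q → 1 / (r : ℝ) < ψ r → 2 * q ≤ r → ψ r ≤ A * ψ q) →
      (∀ q, q₀ ≤ q → 1 / (q : ℝ) < ψ q →
        (q.divisors.card : ℝ) ^ (1 + w ^ 2) * ψ q * (q : ℝ) ^ ((1 + w ^ 2) / (2 + w ^ 2)) ≤ 1) →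
      ¬ Summable (fun q : ℕ => (Nat.totient q : ℝ) / q * ψ q) →
      ∀ᵐ x : ℝ, ∃ᶠ q : ℕ in atTop, ∃ a : ℤ, |(q : ℝ) * x - a - γ| < ψ q) ∧
    (∀ γ : ℝ, Irrational γ → ¬ Liouville γ →
      ∃ β : ℝ, β < 1 ∧ ∀ (ψ : ℕ → ℝ) (A C₁ : ℝ) (q₀ : ℕ), (∀ q, 0 ≤ ψ q) → 1 ≤ A →
        (∀ q r : ℕ, q₀ ≤ q → 1 / (q : ℝ) < ψ q → 1 / (r : ℝ) < ψ r → 2 * q ≤ r → ψ r ≤ A * ψ q) →
        (∀ q, q₀ ≤ q → 1 / (q : ℝ) < ψ q → ψ q ≤ C₁ * (q : ℝ) ^ (-β)) →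
        ¬ Summable (fun q : ℕ => (Nat.totient q : ℝ) / q * ψ q) →
        ∀ᵐ x : ℝ, ∃ᶠ q : ℕ in atTop, ∃ a : ℤ, |(q : ℝ) * x - a - γ| < ψ q) :=
  ⟨fun γ κ w hκ hw hdio ψ A q₀ h0 hA hmono hsize hdiv =>
      Vale.Agent.Lib.P028H.union_dio γ κ w hκ hw hdio ψ h0 A hA q₀ hmono hsize hdiv,
    fun γ hirr hL => Vale.Agent.Lib.P028H.union_nonLiouville γ hirr hL⟩

end Vale.Agent.Results.P028.C_sieve_dio
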